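import Vale.Agent.Lib.P315.Main

open Vale.Agent.Lib.P315 in
/-- Every comparison tree that `α`-approximates the edit distance on all pairs of strings of
length `n` over an alphabet of size `2 n` makes at least `n ^ 2 / (4 α ^ 2)` tests on one explicit
pair of strings, and `(2 n) ^ 2` tests suffice to compute the distance exactly. -/
theorem Vale.Agent.Results.P315.ComparisonTreeBound.result (n : ℕ) :
    (∃ T : CompTree n, ∀ x y : Fin n → Fin (2 * n),
      T.run x y = editDistance (List.ofFn x) (List.ofFn y) ∧ T.cost x y = (2 * n) ^ 2) ∧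
    ∀ α : ℝ, 1 ≤ α → ∀ T : CompTree n,
      (∀ x y : Fin n → Fin (2 * n),
        (editDistance (List.ofFn x) (List.ofFn y) : ℝ) ≤ T.run x y ∧
        (T.run x y : ℝ) ≤ α * editDistance (List.ofFn x) (List.ofFn y)) →
      (n : ℝ) ^ 2 ≤ 4 * α ^ 2 * T.cost (lowString n) (highString n) :=
  ⟨exists_exact_tree n, fun α hα T hT => comparison_lower_bound n α hα T hT⟩
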